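import Vale.Agent.H40.Res.Eid.Sym

/-!
TASK EID-A (sub-row of RES-EID).  Pure finite-sum algebra over `ℂ`; nothing about the model.
`G`, `M` are symmetric `n × n` arrays.  With `T i k = ∑_j (G_ji G_ki + G_jk G_ii) M_kj` the
summand on the left is `T p.1 p.2 + T p.2 p.1` (use `hG`, `hM`), so by `eid_sum_upper_sym` the
left side is `∑_{i,k} T i k - ∑_i T i i`.  Full sum: `∑_{i,k,j} G_ji G_ki M_kj = ∑ G_ab G_bc M_ca`
(rename `a = j, b = i, c = k`, `G_ki = G_ik`) and `∑_{i,k,j} G_jk G_ii M_kj = (∑_i G_ii)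
(∑_{j,k} G_jk M_kj)`.  Diagonal: `T i i = ∑_j 2 G_ji G_ii M_ij = 2 G_ii ∑_j G_ij M_ji`.
-/

namespace Vale.Agent.H40.SK

variable {n : ℕ}

lemma eid_alg_A (G M : Fin n → Fin n → ℂ) (hG : ∀ a b, G a b = G b a)
    (hM : ∀ a b, M a b = M b a) :
    ∑ p ∈ upper n, ∑ j, ((G j p.1 * G p.2 p.1 + G j p.2 * G p.1 p.1) * M p.2 j
        + (G j p.1 * G p.2 p.2 + G j p.2 * G p.1 p.2) * M p.1 j)
      = (∑ a, ∑ b, ∑ c, G a b * G b c * M c a) + (∑ a, G a a) * (∑ a, ∑ b, G a b * M b a)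
        - 2 * ∑ i, G i i * ∑ j, G i j * M j i := by
  have hsum := eid_sum_upper_sym
    (fun i k : Fin n => ∑ j, (G j i * G k i + G j k * G i i) * M k j)
  beta_reduce at hsum
  have hL : ∑ p ∈ upper n, ∑ j, ((G j p.1 * G p.2 p.1 + G j p.2 * G p.1 p.1) * M p.2 j
        + (G j p.1 * G p.2 p.2 + G j p.2 * G p.1 p.2) * M p.1 j)
      = ∑ p ∈ upper n, ((∑ j, (G j p.1 * G p.2 p.1 + G j p.2 * G p.1 p.1) * M p.2 j)
        + ∑ j, (G j p.2 * G p.1 p.2 + G j p.1 * G p.2 p.2) * M p.1 j) := by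
    refine Finset.sum_congr rfl fun p _ => ?_
    rw [← Finset.sum_add_distrib]
    refine Finset.sum_congr rfl fun j _ => ?_
    ring
  rw [hL, hsum]
  have h1 : ∑ i, ∑ k, ∑ j, (G j i * G k i + G j k * G i i) * M k j
      = (∑ a, ∑ b, ∑ c, G a b * G b c * M c a)
        + (∑ a, G a a) * (∑ a, ∑ b, G a b * M b a) := by
    have e1 : ∑ i, ∑ k, ∑ j, (G j i * G k i + G j k * G i i) * M k j
        = ∑ i, ∑ k, ∑ j, G j i * G i k * M k j
          + ∑ i, ∑ k, ∑ j, G i i * (G j k * M k j) := by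
      simp only [← Finset.sum_add_distrib]
      refine Finset.sum_congr rfl fun i _ => Finset.sum_congr rfl fun k _ =>
        Finset.sum_congr rfl fun j _ => ?_
      rw [hG k i]
      ring
    have e2 : ∑ i, ∑ k, ∑ j, G j i * G i k * M k j
        = ∑ a, ∑ b, ∑ c, G a b * G b c * M c a := by
      calc ∑ i, ∑ k, ∑ j, G j i * G i k * M k j
          = ∑ i, ∑ j, ∑ k, G j i * G i k * M k j :=
            Finset.sum_congr rfl fun i _ => Finset.sum_comm
        _ = ∑ j, ∑ i, ∑ k, G j i * G i k * M k j := Finset.sum_comm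
    have e3 : ∑ i, ∑ k, ∑ j, G i i * (G j k * M k j)
        = (∑ a, G a a) * (∑ a, ∑ b, G a b * M b a) := by
      rw [Finset.sum_mul]
      refine Finset.sum_congr rfl fun i _ => ?_
      have hc : ∑ k, ∑ j, G i i * (G j k * M k j) = ∑ j, ∑ k, G i i * (G j k * M k j) :=
        Finset.sum_comm
      rw [hc, Finset.mul_sum]
      refine Finset.sum_congr rfl fun a _ => ?_
      rw [Finset.mul_sum]
    rw [e1, e2, e3]
  have h2 : ∑ i, ∑ j, (G j i * G i i + G j i * G i i) * M i j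
      = 2 * ∑ i, G i i * ∑ j, G i j * M j i := by
    rw [Finset.mul_sum]
    refine Finset.sum_congr rfl fun i _ => ?_
    rw [Finset.mul_sum, Finset.mul_sum]
    refine Finset.sum_congr rfl fun j _ => ?_
    rw [hG j i, hM i j]
    ring
  rw [h1, h2]

end Vale.Agent.H40.SK
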