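import Vale.Agent.H40.Res.Eid.Sym

/-!
TASK EID-B (sub-row of RES-EID).  Pure finite-sum algebra over `ℂ`; nothing about the model.
`μ` are weights on a finite type `X` with total mass `1`, `s x i` are signs (`s x i * s x i = 1`),
`M a b = ∑_x μ_x s_a s_b` and `c4 p q = ∑_x μ_x (s_{p.1} s_{p.2}) (s_{q.1} s_{q.2})`.
Facts to derive first: `M a b = M b a`; `M i i = 1`; `c4 (i,k) (k,j) = M i j` and
`c4 (i,k) (i,j) = M k j` (signs square to one); `c4 (i,i) q = M q.1 q.2`.
With `T i k = ∑_j G_ji (c4 (i,k) (k,j) - M_ik M_kj) = ∑_j G_ji (M_ij - M_ik M_kj)` the summand on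
the left is `T p.1 p.2 + T p.2 p.1`, so by `eid_sum_upper_sym` the left side is
`∑_{i,k} T i k - ∑_i T i i`; `T i i = 0` (`M_ii = 1`), and
`∑_{i,k,j} G_ji M_ij = n ∑_{a,b} G_ab M_ba`, `∑_{i,k,j} G_ji M_ik M_kj = ∑ G_ab M_bc M_ca`
(rename `a = j, b = i, c = k`).
-/

namespace Vale.Agent.H40.SK

variable {n : ℕ}

lemma eid_alg_B {X : Type*} [Fintype X] (μ : X → ℂ) (s : X → Fin n → ℂ)
    (hs : ∀ x i, s x i * s x i = 1) (hμ : ∑ x, μ x = 1)
    (G M : Fin n → Fin n → ℂ) (c4 : Fin n × Fin n → Fin n × Fin n → ℂ)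
    (hM : ∀ a b, M a b = ∑ x, μ x * (s x a * s x b))
    (h4 : ∀ p q, c4 p q = ∑ x, μ x * ((s x p.1 * s x p.2) * (s x q.1 * s x q.2))) :
    ∑ p ∈ upper n, ∑ j, (G j p.1 * (c4 p (p.2, j) - M p.1 p.2 * M p.2 j)
        + G j p.2 * (c4 p (p.1, j) - M p.1 p.2 * M p.1 j))
      = (n : ℂ) * (∑ a, ∑ b, G a b * M b a) - ∑ a, ∑ b, ∑ c, G a b * M b c * M c a := by
  have hMsym : ∀ a b, M a b = M b a := by
    intro a b
    rw [hM, hM]
    exact Finset.sum_congr rfl (fun x _ => by ring)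
  have hMii : ∀ i, M i i = 1 := by
    intro i
    rw [hM]
    simp only [hs, mul_one]
    exact hμ
  have hc1 : ∀ i k j, c4 (i, k) (k, j) = M i j := by
    intro i k j
    rw [h4, hM]
    refine Finset.sum_congr rfl (fun x _ => ?_)
    have h := hs x k
    calc μ x * ((s x i * s x k) * (s x k * s x j))
        = μ x * (s x i * s x j) * (s x k * s x k) := by ring
      _ = μ x * (s x i * s x j) := by rw [h, mul_one]
  have hc2 : ∀ i k j, c4 (i, k) (i, j) = M k j := by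
    intro i k j
    rw [h4, hM]
    refine Finset.sum_congr rfl (fun x _ => ?_)
    have h := hs x i
    calc μ x * ((s x i * s x k) * (s x i * s x j))
        = μ x * (s x k * s x j) * (s x i * s x i) := by ring
      _ = μ x * (s x k * s x j) := by rw [h, mul_one]
  have hS : ∑ p ∈ upper n, (∑ j, G j p.1 * (M p.1 j - M p.1 p.2 * M p.2 j)
        + ∑ j, G j p.2 * (M p.2 j - M p.2 p.1 * M p.1 j))
      = ∑ i, ∑ k, ∑ j, G j i * (M i j - M i k * M k j)
        - ∑ i, ∑ j, G j i * (M i j - M i i * M i j) :=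
    eid_sum_upper_sym (fun i k => ∑ j, G j i * (M i j - M i k * M k j))
  have hL : ∑ p ∈ upper n, ∑ j, (G j p.1 * (c4 p (p.2, j) - M p.1 p.2 * M p.2 j)
        + G j p.2 * (c4 p (p.1, j) - M p.1 p.2 * M p.1 j))
      = ∑ p ∈ upper n, (∑ j, G j p.1 * (M p.1 j - M p.1 p.2 * M p.2 j)
        + ∑ j, G j p.2 * (M p.2 j - M p.2 p.1 * M p.1 j)) := by
    refine Finset.sum_congr rfl (fun p _ => ?_)
    obtain ⟨i, k⟩ := p
    show ∑ j, (G j i * (c4 (i, k) (k, j) - M i k * M k j)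
        + G j k * (c4 (i, k) (i, j) - M i k * M i j))
      = ∑ j, G j i * (M i j - M i k * M k j) + ∑ j, G j k * (M k j - M k i * M i j)
    rw [← Finset.sum_add_distrib]
    refine Finset.sum_congr rfl (fun j _ => ?_)
    rw [hc1, hc2, hMsym k i]
  rw [hL, hS]
  have hTii : ∀ i : Fin n, ∑ j : Fin n, G j i * (M i j - M i i * M i j) = 0 := by
    intro i
    simp only [hMii, one_mul, sub_self, mul_zero, Finset.sum_const_zero]
  rw [Finset.sum_congr rfl (fun i _ => hTii i)]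
  simp only [Finset.sum_const_zero, sub_zero]
  have h1 : ∑ i, ∑ k, ∑ j, G j i * (M i j - M i k * M k j)
      = ∑ i, ∑ _k : Fin n, ∑ j, G j i * M i j - ∑ i, ∑ k, ∑ j, G j i * M i k * M k j := by
    rw [← Finset.sum_sub_distrib]
    refine Finset.sum_congr rfl (fun i _ => ?_)
    rw [← Finset.sum_sub_distrib]
    refine Finset.sum_congr rfl (fun k _ => ?_)
    rw [← Finset.sum_sub_distrib]
    exact Finset.sum_congr rfl (fun j _ => by ring)
  rw [h1]
  congr 1
  · have h2 : ∀ i : Fin n, ∑ _k : Fin n, ∑ j : Fin n, G j i * M i j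
        = (n : ℂ) * ∑ j : Fin n, G j i * M i j := by
      intro i
      simp [Finset.sum_const, Finset.card_univ]
    rw [Finset.sum_congr rfl (fun i _ => h2 i), ← Finset.mul_sum, Finset.sum_comm]
  · calc ∑ i, ∑ k, ∑ j, G j i * M i k * M k j
        = ∑ i, ∑ j, ∑ k, G j i * M i k * M k j :=
          Finset.sum_congr rfl (fun i _ => Finset.sum_comm)
      _ = ∑ j, ∑ i, ∑ k, G j i * M i k * M k j := Finset.sum_comm

end Vale.Agent.H40.SK
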