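import Vale.Agent.H40.Res.Eid.Sym

/-!
TASK EID-C (sub-row of RES-EID).  Pure finite-sum algebra over `ℂ`; nothing about the model.
`μ` are weights on a finite type `X` with total mass `1`, `s x i` are signs (`s x i * s x i = 1`),
`M a b = ∑_x μ_x s_a s_b` and `c4 p q = ∑_x μ_x (s_{p.1} s_{p.2}) (s_{q.1} s_{q.2})`.
Put `D p = ∑_q 2 M_q (c4 p q - M_p M_q)` (here `M_q = M q.1 q.2`); `D` is symmetric in the two
entries of `p`, and `D (i,i) = 0` because `c4 (i,i) q = M_q`.  With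
`T i k = D (i,k) * ∑_j G_ji M_kj` the summand on the left is `T p.1 p.2 + T p.2 p.1`, so by
`eid_sum_upper_sym` the left side is `∑_{i,k} T i k` (the diagonal vanishes).  Finally
`∑_{i,k} (∑_j G_ji M_kj) ∑_{a,b} M_ab c4 (i,k) (a,b)
   = ∑_x μ_x (∑_{a,b} M_ab s_a s_b) (∑_{k,i} (∑_j M_kj G_ji) s_k s_i)`  (the first term on the
right, with `a = k`, `b = i`, `c = j` in its second factor) and
`∑_{i,k} (∑_j G_ji M_kj) M_ik = ∑ G_ab M_bc M_ca` (`a = j, b = i, c = k`).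
-/

namespace Vale.Agent.H40.SK

variable {n : ℕ}

lemma eidc_swap3 (F : Fin n → Fin n → Fin n → ℂ) :
    ∑ i, ∑ k, ∑ j, F i k j = ∑ a, ∑ b, ∑ c, F b c a := by
  calc ∑ i, ∑ k, ∑ j, F i k j = ∑ i, ∑ j, ∑ k, F i k j := by
        refine Finset.sum_congr rfl fun i _ => ?_
        exact Finset.sum_comm
    _ = ∑ j, ∑ i, ∑ k, F i k j := Finset.sum_comm

lemma eidc_swapx {X : Type*} [Fintype X] (F : Fin n → Fin n → X → ℂ) :
    ∑ i, ∑ k, ∑ x, F i k x = ∑ x, ∑ i, ∑ k, F i k x := by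
  calc ∑ i, ∑ k, ∑ x, F i k x = ∑ i, ∑ x, ∑ k, F i k x := by
        refine Finset.sum_congr rfl fun i _ => ?_
        exact Finset.sum_comm
    _ = ∑ x, ∑ i, ∑ k, F i k x := Finset.sum_comm

lemma eid_alg_C {X : Type*} [Fintype X] (μ : X → ℂ) (s : X → Fin n → ℂ)
    (hs : ∀ x i, s x i * s x i = 1) (hμ : ∑ x, μ x = 1)
    (G M : Fin n → Fin n → ℂ) (c4 : Fin n × Fin n → Fin n × Fin n → ℂ)
    (hM : ∀ a b, M a b = ∑ x, μ x * (s x a * s x b))
    (h4 : ∀ p q, c4 p q = ∑ x, μ x * ((s x p.1 * s x p.2) * (s x q.1 * s x q.2))) :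
    ∑ p ∈ upper n, (∑ q : Fin n × Fin n, 2 * M q.1 q.2 * (c4 p q - M p.1 p.2 * M q.1 q.2))
        * (∑ j, (G j p.1 * M p.2 j + G j p.2 * M p.1 j))
      = 2 * (∑ x, μ x * (∑ a, ∑ b, M a b * s x a * s x b)
              * (∑ a, ∑ b, (∑ c, M a c * G c b) * s x a * s x b)
            - (∑ q : Fin n × Fin n, M q.1 q.2 ^ 2) * ∑ a, ∑ b, ∑ c, G a b * M b c * M c a) := by
  classical
  have hMs : ∀ a b, M a b = M b a := by
    intro a b
    rw [hM, hM]
    exact Finset.sum_congr rfl fun x _ => by ring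
  have hMii : ∀ i, M i i = 1 := by
    intro i
    rw [hM]
    simp only [hs, mul_one]
    exact hμ
  have hc4s : ∀ i k q, c4 (i, k) q = c4 (k, i) q := by
    intro i k q
    rw [h4, h4]
    exact Finset.sum_congr rfl fun x _ => by ring
  have hc4ii : ∀ i q, c4 (i, i) q = M q.1 q.2 := by
    intro i q
    rw [h4, hM]
    refine Finset.sum_congr rfl fun x _ => ?_
    show μ x * ((s x i * s x i) * (s x q.1 * s x q.2)) = μ x * (s x q.1 * s x q.2)
    rw [hs]
    ring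
  obtain ⟨Dfun, hDdef⟩ : ∃ D : Fin n → Fin n → ℂ, ∀ i k, D i k
      = ∑ q : Fin n × Fin n, 2 * M q.1 q.2 * (c4 (i, k) q - M i k * M q.1 q.2) :=
    ⟨_, fun _ _ => rfl⟩
  obtain ⟨R, hRdef⟩ : ∃ R : Fin n → Fin n → ℂ, ∀ i k, R i k = ∑ j, G j i * M k j :=
    ⟨_, fun _ _ => rfl⟩
  obtain ⟨Pf, hPdef⟩ : ∃ Pf : X → ℂ, ∀ x, Pf x = ∑ a, ∑ b, M a b * s x a * s x b :=
    ⟨_, fun _ => rfl⟩
  obtain ⟨S2, hS2⟩ : ∃ S2 : ℂ, S2 = ∑ q : Fin n × Fin n, M q.1 q.2 ^ 2 := ⟨_, rfl⟩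
  have hDs : ∀ i k, Dfun i k = Dfun k i := by
    intro i k
    rw [hDdef, hDdef]
    refine Finset.sum_congr rfl fun q _ => ?_
    rw [hc4s i k q, hMs i k]
  have hDii : ∀ i, Dfun i i = 0 := by
    intro i
    rw [hDdef]
    refine Finset.sum_eq_zero fun q _ => ?_
    rw [hc4ii, hMii]
    ring
  have hL : ∑ p ∈ upper n,
        (∑ q : Fin n × Fin n, 2 * M q.1 q.2 * (c4 p q - M p.1 p.2 * M q.1 q.2))
        * (∑ j, (G j p.1 * M p.2 j + G j p.2 * M p.1 j))
      = ∑ p ∈ upper n, ((fun i k => Dfun i k * R i k) p.1 p.2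
          + (fun i k => Dfun i k * R i k) p.2 p.1) := by
    refine Finset.sum_congr rfl fun p _ => ?_
    have e1 : (∑ q : Fin n × Fin n, 2 * M q.1 q.2 * (c4 p q - M p.1 p.2 * M q.1 q.2))
        = Dfun p.1 p.2 := by
      rw [hDdef]
    rw [e1, Finset.sum_add_distrib]
    show Dfun p.1 p.2 * (∑ j, G j p.1 * M p.2 j + ∑ j, G j p.2 * M p.1 j)
      = Dfun p.1 p.2 * R p.1 p.2 + Dfun p.2 p.1 * R p.2 p.1
    rw [hRdef, hRdef, hDs p.2 p.1]
    ring
  -- the key expansion of `Dfun`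
  have hK : ∀ i k, Dfun i k
      = 2 * (∑ x, μ x * (s x i * s x k) * Pf x) - 2 * M i k * S2 := by
    intro i k
    rw [hDdef]
    have e0 : ∀ q : Fin n × Fin n, 2 * M q.1 q.2 * (c4 (i, k) q - M i k * M q.1 q.2)
        = 2 * (M q.1 q.2 * c4 (i, k) q) - 2 * M i k * M q.1 q.2 ^ 2 := by
      intro q
      ring
    simp only [e0, Finset.sum_sub_distrib, ← Finset.mul_sum]
    rw [← hS2]
    congr 2
    -- ∑ q, M q * c4 (i,k) q = ∑ x, μ x * (s x i * s x k) * Pf x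
    have e1 : ∀ q : Fin n × Fin n, M q.1 q.2 * c4 (i, k) q
        = ∑ x, μ x * (s x i * s x k) * (M q.1 q.2 * s x q.1 * s x q.2) := by
      intro q
      rw [h4, Finset.mul_sum]
      refine Finset.sum_congr rfl fun x _ => ?_
      show M q.1 q.2 * (μ x * ((s x i * s x k) * (s x q.1 * s x q.2)))
        = μ x * (s x i * s x k) * (M q.1 q.2 * s x q.1 * s x q.2)
      ring
    simp only [e1]
    rw [Finset.sum_comm]
    refine Finset.sum_congr rfl fun x _ => ?_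
    rw [hPdef, ← Finset.mul_sum, Fintype.sum_prod_type]
  rw [hL, eid_sum_upper_sym (fun i k => Dfun i k * R i k)]
  have hdiag : ∑ i, (fun i k => Dfun i k * R i k) i i = 0 := by
    refine Finset.sum_eq_zero fun i _ => ?_
    show Dfun i i * R i i = 0
    rw [hDii, zero_mul]
  rw [hdiag, sub_zero]
  show ∑ i, ∑ k, Dfun i k * R i k = _
  -- Part A
  have hA1 : ∑ i, ∑ k, (∑ x, μ x * (s x i * s x k) * Pf x) * R i k
      = ∑ x, ∑ i, ∑ k, μ x * (s x i * s x k) * Pf x * R i k := by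
    simp only [Finset.sum_mul]
    rw [eidc_swapx]
  have hA : ∑ i, ∑ k, (∑ x, μ x * (s x i * s x k) * Pf x) * R i k
      = ∑ x, μ x * (∑ a, ∑ b, M a b * s x a * s x b)
          * (∑ a, ∑ b, (∑ c, M a c * G c b) * s x a * s x b) := by
    rw [hA1]
    refine Finset.sum_congr rfl fun x _ => ?_
    rw [← hPdef]
    have e2 : ∑ a, ∑ b, (∑ c, M a c * G c b) * s x a * s x b
        = ∑ i, ∑ k, R i k * s x k * s x i := by
      rw [Finset.sum_comm]
      refine Finset.sum_congr rfl fun i _ => ?_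
      refine Finset.sum_congr rfl fun k _ => ?_
      rw [hRdef]
      congr 2
      exact Finset.sum_congr rfl fun j _ => by ring
    rw [e2, Finset.mul_sum]
    refine Finset.sum_congr rfl fun i _ => ?_
    rw [Finset.mul_sum]
    refine Finset.sum_congr rfl fun k _ => ?_
    ring
  -- Part B
  have hB : ∑ i, ∑ k, M i k * R i k = ∑ a, ∑ b, ∑ c, G a b * M b c * M c a := by
    simp only [hRdef, Finset.mul_sum]
    rw [eidc_swap3]
    refine Finset.sum_congr rfl fun a _ => ?_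
    refine Finset.sum_congr rfl fun b _ => ?_
    refine Finset.sum_congr rfl fun c _ => ?_
    ring
  have hT : ∀ i k, Dfun i k * R i k
      = 2 * ((∑ x, μ x * (s x i * s x k) * Pf x) * R i k) - 2 * S2 * (M i k * R i k) := by
    intro i k
    rw [hK]
    ring
  simp only [hT, Finset.sum_sub_distrib, ← Finset.mul_sum]
  rw [hA, hB, ← hS2]
  ring

end Vale.Agent.H40.SK
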