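import Vale.Agent.H40.Res.Eid.Defs

/-!
TASK EID-E (sub-row of RES-EID).  `Φ_p` and its derivative are continuous and bounded functions
of the disorder (for fixed `n ≥ 1`, `ζ` off the real axis, `β`, `κ > 0`, `θ ≥ 0`).

Ingredients (all landed or stubs): `continuous_resolvent`, `resolvent_entry_le`
(`‖G_ab‖ ≤ 1/|Im ζ|`), `continuous_corr`, `abs_corr_gibbs_le` (`|M| ≤ 1`), `continuous_corr4`,
`abs_corr4_le`, `continuous_dW`, `abs_dW_le`, `continuous_corrSq`; `0 ≤ corrSq` (sum of squares),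
so the base `b = W/n² + κ ≥ κ > 0`, `wgt = b^(-θ)` is continuous (`Continuous.rpow_const`),
`0 < wgt ≤ κ^(-θ)` and `|dwgt| ≤ θ κ^(-θ-1)/n²` (`Real.rpow_le_rpow_of_exponent_nonpos`).
Suggested route for the bounds: the predicate `∃ C, ∀ g, ‖f g‖ ≤ C` is closed under sums, products,
finite sums and contains the constants; then no explicit constant is needed.
-/

namespace Vale.Agent.H40.SK

open MeasureTheory ProbabilityTheory Real

variable {n : ℕ}

/-- Uniform boundedness of a function. -/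
def eide_Bdd {α E : Type*} [Norm E] (f : α → E) : Prop := ∃ C : ℝ, ∀ x, ‖f x‖ ≤ C

lemma eide_bdd_const {α E : Type*} [SeminormedAddCommGroup E] (c : E) :
    eide_Bdd (fun _ : α => c) := ⟨‖c‖, fun _ => le_rfl⟩

lemma eide_bdd_add {α E : Type*} [SeminormedAddCommGroup E] {f g : α → E}
    (hf : eide_Bdd f) (hg : eide_Bdd g) : eide_Bdd (fun x => f x + g x) := by
  obtain ⟨A, hA⟩ := hf
  obtain ⟨B, hB⟩ := hg
  exact ⟨A + B, fun x => (norm_add_le _ _).trans (add_le_add (hA x) (hB x))⟩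

lemma eide_bdd_sub {α E : Type*} [SeminormedAddCommGroup E] {f g : α → E}
    (hf : eide_Bdd f) (hg : eide_Bdd g) : eide_Bdd (fun x => f x - g x) := by
  obtain ⟨A, hA⟩ := hf
  obtain ⟨B, hB⟩ := hg
  exact ⟨A + B, fun x => (norm_sub_le _ _).trans (add_le_add (hA x) (hB x))⟩

lemma eide_bdd_mul {α E : Type*} [SeminormedRing E] {f g : α → E}
    (hf : eide_Bdd f) (hg : eide_Bdd g) : eide_Bdd (fun x => f x * g x) := by
  obtain ⟨A, hA⟩ := hf
  obtain ⟨B, hB⟩ := hg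
  exact ⟨A * B, fun x => (norm_mul_le _ _).trans
    (mul_le_mul (hA x) (hB x) (norm_nonneg _) ((norm_nonneg _).trans (hA x)))⟩

lemma eide_bdd_sum {α E ι : Type*} [Fintype ι] [SeminormedAddCommGroup E] {f : ι → α → E}
    (h : ∀ i, eide_Bdd (f i)) : eide_Bdd (fun x => ∑ i, f i x) := by
  choose C hC using h
  exact ⟨∑ i, C i, fun x => (norm_sum_le _ _).trans (Finset.sum_le_sum fun i _ => hC i x)⟩

lemma eide_bdd_ofReal {α : Type*} {f : α → ℝ} (hf : eide_Bdd f) :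
    eide_Bdd (fun x => (f x : ℂ)) := by
  obtain ⟨A, hA⟩ := hf
  exact ⟨A, fun x => by rw [Complex.norm_real]; exact hA x⟩

lemma eide_bdd_div_const {α : Type*} {f : α → ℝ} (hf : eide_Bdd f) (c : ℝ) :
    eide_Bdd (fun x => f x / c) := by
  obtain ⟨A, hA⟩ := hf
  exact ⟨A / ‖c‖, fun x => by
    rw [norm_div]
    exact div_le_div_of_nonneg_right (hA x) (norm_nonneg _)⟩

lemma eide_bdd_G (ζ : ℂ) (hζ : ζ.im ≠ 0) (a b : Fin n) :
    eide_Bdd (fun g : Fin n × Fin n → ℝ => resolvent n ζ g a b) :=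
  ⟨1 / |ζ.im|, fun g => resolvent_entry_le ζ hζ g a b⟩

lemma eide_bdd_corr (β : ℝ) (q : Fin n × Fin n) :
    eide_Bdd (fun g : Fin n × Fin n → ℝ => corr (gibbs n β g) q) :=
  ⟨1, fun g => abs_corr_gibbs_le β q g⟩

lemma eide_bdd_corr4 (β : ℝ) (p q : Fin n × Fin n) :
    eide_Bdd (fun g : Fin n × Fin n → ℝ => corr4 n β p q g) :=
  ⟨1, fun g => abs_corr4_le β p q g⟩

lemma eide_bdd_dW (β : ℝ) (p : Fin n × Fin n) :
    eide_Bdd (fun g : Fin n × Fin n → ℝ => dW n β p g) :=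
  ⟨_, fun g => abs_dW_le β p g⟩

lemma eide_corrSq_nonneg (β : ℝ) (g : Fin n × Fin n → ℝ) : 0 ≤ corrSq (gibbs n β g) := by
  unfold corrSq
  exact Finset.sum_nonneg fun p _ => sq_nonneg _

lemma eide_base_ge (β κ : ℝ) (g : Fin n × Fin n → ℝ) :
    κ ≤ corrSq (gibbs n β g) / (n : ℝ) ^ 2 + κ := by
  have : 0 ≤ corrSq (gibbs n β g) / (n : ℝ) ^ 2 :=
    div_nonneg (eide_corrSq_nonneg β g) (sq_nonneg _)
  linarith

lemma eide_continuous_base (β κ : ℝ) :
    Continuous (fun g : Fin n × Fin n → ℝ => corrSq (gibbs n β g) / (n : ℝ) ^ 2 + κ) :=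
  ((continuous_corrSq β).div_const _).add continuous_const

lemma eide_continuous_rpow (β κ : ℝ) (hκ : 0 < κ) (e : ℝ) :
    Continuous (fun g : Fin n × Fin n → ℝ => (corrSq (gibbs n β g) / (n : ℝ) ^ 2 + κ) ^ e) :=
  (eide_continuous_base β κ).rpow_const
    fun g => Or.inl (lt_of_lt_of_le hκ (eide_base_ge β κ g)).ne'

lemma eide_bdd_rpow (β κ : ℝ) (hκ : 0 < κ) (e : ℝ) (he : e ≤ 0) :
    eide_Bdd (fun g : Fin n × Fin n → ℝ => (corrSq (gibbs n β g) / (n : ℝ) ^ 2 + κ) ^ e) := by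
  refine ⟨κ ^ e, fun g => ?_⟩
  have hb := eide_base_ge (n := n) β κ g
  rw [Real.norm_eq_abs, abs_of_nonneg (Real.rpow_nonneg (hκ.le.trans hb) _)]
  exact Real.rpow_le_rpow_of_nonpos hκ hb he

lemma eide_continuous_wgt (β κ θ : ℝ) (hκ : 0 < κ) :
    Continuous (fun g : Fin n × Fin n → ℝ => wgt n β κ θ g) := by
  unfold wgt
  exact eide_continuous_rpow β κ hκ _

lemma eide_continuous_dwgt (β κ θ : ℝ) (hκ : 0 < κ) :
    Continuous (fun g : Fin n × Fin n → ℝ => dwgt n β κ θ g) := by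
  unfold dwgt
  exact (continuous_const.mul (eide_continuous_rpow β κ hκ _)).div_const _

lemma eide_bdd_wgt (β κ θ : ℝ) (hκ : 0 < κ) (hθ : 0 ≤ θ) :
    eide_Bdd (fun g : Fin n × Fin n → ℝ => wgt n β κ θ g) := by
  unfold wgt
  exact eide_bdd_rpow β κ hκ _ (by linarith)

lemma eide_bdd_dwgt (β κ θ : ℝ) (hκ : 0 < κ) (hθ : 0 ≤ θ) :
    eide_Bdd (fun g : Fin n × Fin n → ℝ => dwgt n β κ θ g) := by
  unfold dwgt
  exact eide_bdd_div_const
    (eide_bdd_mul (eide_bdd_const (-θ)) (eide_bdd_rpow β κ hκ _ (by linarith))) _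

lemma eide_continuous_psi (ζ : ℂ) (hζ : ζ.im ≠ 0) (β : ℝ) (p : Fin n × Fin n) :
    Continuous (fun g : Fin n × Fin n → ℝ => eidPsi n ζ β p g) := by
  have hG := fun a b : Fin n => continuous_resolvent ζ hζ a b
  have hM : ∀ q : Fin n × Fin n,
      Continuous (fun g : Fin n × Fin n → ℝ => (corr (gibbs n β g) q : ℂ)) :=
    fun q => Complex.continuous_ofReal.comp (continuous_corr β q)
  unfold eidPsi
  refine continuous_finsetSum _ fun j _ => ?_
  exact ((hG j p.1).mul (hM (p.2, j))).add ((hG j p.2).mul (hM (p.1, j)))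

lemma eide_bdd_psi (ζ : ℂ) (hζ : ζ.im ≠ 0) (β : ℝ) (p : Fin n × Fin n) :
    eide_Bdd (fun g : Fin n × Fin n → ℝ => eidPsi n ζ β p g) := by
  have hG := fun a b : Fin n => eide_bdd_G ζ hζ a b
  have hM : ∀ q : Fin n × Fin n,
      eide_Bdd (fun g : Fin n × Fin n → ℝ => (corr (gibbs n β g) q : ℂ)) :=
    fun q => eide_bdd_ofReal (eide_bdd_corr β q)
  unfold eidPsi
  refine eide_bdd_sum fun j => ?_
  exact eide_bdd_add (eide_bdd_mul (hG j p.1) (hM (p.2, j)))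
    (eide_bdd_mul (hG j p.2) (hM (p.1, j)))

lemma eide_continuous_dpsi (ζ : ℂ) (hζ : ζ.im ≠ 0) (β : ℝ) (p : Fin n × Fin n) :
    Continuous (fun g : Fin n × Fin n → ℝ => eidDPsi n ζ β p g) := by
  have hG := fun a b : Fin n => continuous_resolvent ζ hζ a b
  have hM : ∀ q : Fin n × Fin n,
      Continuous (fun g : Fin n × Fin n → ℝ => (corr (gibbs n β g) q : ℂ)) :=
    fun q => Complex.continuous_ofReal.comp (continuous_corr β q)
  have hR : ∀ q : Fin n × Fin n, Continuous (fun g : Fin n × Fin n → ℝ =>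
      ((β * (√(n : ℝ))⁻¹ * (corr4 n β p q g
        - corr (gibbs n β g) p * corr (gibbs n β g) q) : ℝ) : ℂ)) :=
    fun q => Complex.continuous_ofReal.comp (continuous_const.mul
      ((continuous_corr4 β p q).sub ((continuous_corr β p).mul (continuous_corr β q))))
  unfold eidDPsi
  refine continuous_finsetSum _ fun j _ => ?_
  exact ((((continuous_const.mul (((hG j p.1).mul (hG p.2 p.1)).add
      ((hG j p.2).mul (hG p.1 p.1)))).mul (hM (p.2, j))).add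
    ((hG j p.1).mul (hR (p.2, j)))).add
    ((continuous_const.mul (((hG j p.1).mul (hG p.2 p.2)).add
      ((hG j p.2).mul (hG p.1 p.2)))).mul (hM (p.1, j)))).add
    ((hG j p.2).mul (hR (p.1, j)))

lemma eide_bdd_dpsi (ζ : ℂ) (hζ : ζ.im ≠ 0) (β : ℝ) (p : Fin n × Fin n) :
    eide_Bdd (fun g : Fin n × Fin n → ℝ => eidDPsi n ζ β p g) := by
  have hG := fun a b : Fin n => eide_bdd_G ζ hζ a b
  have hM : ∀ q : Fin n × Fin n,
      eide_Bdd (fun g : Fin n × Fin n → ℝ => (corr (gibbs n β g) q : ℂ)) :=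
    fun q => eide_bdd_ofReal (eide_bdd_corr β q)
  have hR : ∀ q : Fin n × Fin n, eide_Bdd (fun g : Fin n × Fin n → ℝ =>
      ((β * (√(n : ℝ))⁻¹ * (corr4 n β p q g
        - corr (gibbs n β g) p * corr (gibbs n β g) q) : ℝ) : ℂ)) :=
    fun q => eide_bdd_ofReal (eide_bdd_mul (eide_bdd_const (β * (√(n : ℝ))⁻¹))
      (eide_bdd_sub (eide_bdd_corr4 β p q) (eide_bdd_mul (eide_bdd_corr β p) (eide_bdd_corr β q))))
  have hc : eide_Bdd (fun _ : Fin n × Fin n → ℝ => (((√(n : ℝ))⁻¹ : ℝ) : ℂ)) :=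
    eide_bdd_const _
  unfold eidDPsi
  refine eide_bdd_sum fun j => ?_
  exact eide_bdd_add (eide_bdd_add (eide_bdd_add
      (eide_bdd_mul (eide_bdd_mul hc (eide_bdd_add (eide_bdd_mul (hG j p.1) (hG p.2 p.1))
        (eide_bdd_mul (hG j p.2) (hG p.1 p.1)))) (hM (p.2, j)))
      (eide_bdd_mul (hG j p.1) (hR (p.2, j))))
      (eide_bdd_mul (eide_bdd_mul hc (eide_bdd_add (eide_bdd_mul (hG j p.1) (hG p.2 p.2))
        (eide_bdd_mul (hG j p.2) (hG p.1 p.2)))) (hM (p.1, j))))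
    (eide_bdd_mul (hG j p.2) (hR (p.1, j)))

lemma eid_continuous_phi (hn : 1 ≤ n) (ζ : ℂ) (hζ : ζ.im ≠ 0) (β κ θ : ℝ) (hκ : 0 < κ)
    (p : Fin n × Fin n) :
    Continuous (fun g : Fin n × Fin n → ℝ => eidPhi n ζ β κ θ p g) := by
  unfold eidPhi
  exact (Complex.continuous_ofReal.comp (eide_continuous_wgt β κ θ hκ)).mul
    (eide_continuous_psi ζ hζ β p)

lemma eid_continuous_dphi (hn : 1 ≤ n) (ζ : ℂ) (hζ : ζ.im ≠ 0) (β κ θ : ℝ) (hκ : 0 < κ)
    (p : Fin n × Fin n) :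
    Continuous (fun g : Fin n × Fin n → ℝ => eidDPhi n ζ β κ θ p g) := by
  unfold eidDPhi
  exact ((Complex.continuous_ofReal.comp
      ((eide_continuous_dwgt β κ θ hκ).mul (continuous_dW β p))).mul
      (eide_continuous_psi ζ hζ β p)).add
    ((Complex.continuous_ofReal.comp (eide_continuous_wgt β κ θ hκ)).mul
      (eide_continuous_dpsi ζ hζ β p))

lemma eid_bdd_phi (hn : 1 ≤ n) (ζ : ℂ) (hζ : ζ.im ≠ 0) (β κ θ : ℝ) (hκ : 0 < κ) (hθ : 0 ≤ θ)
    (p : Fin n × Fin n) :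
    ∃ C : ℝ, ∀ g : Fin n × Fin n → ℝ, ‖eidPhi n ζ β κ θ p g‖ ≤ C := by
  have h : eide_Bdd (fun g : Fin n × Fin n → ℝ => eidPhi n ζ β κ θ p g) := by
    unfold eidPhi
    exact eide_bdd_mul (eide_bdd_ofReal (eide_bdd_wgt β κ θ hκ hθ)) (eide_bdd_psi ζ hζ β p)
  exact h

lemma eid_bdd_dphi (hn : 1 ≤ n) (ζ : ℂ) (hζ : ζ.im ≠ 0) (β κ θ : ℝ) (hκ : 0 < κ) (hθ : 0 ≤ θ)
    (p : Fin n × Fin n) :
    ∃ C : ℝ, ∀ g : Fin n × Fin n → ℝ, ‖eidDPhi n ζ β κ θ p g‖ ≤ C := by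
  have h : eide_Bdd (fun g : Fin n × Fin n → ℝ => eidDPhi n ζ β κ θ p g) := by
    unfold eidDPhi
    exact eide_bdd_add
      (eide_bdd_mul (eide_bdd_ofReal (eide_bdd_mul (eide_bdd_dwgt β κ θ hκ hθ) (eide_bdd_dW β p)))
        (eide_bdd_psi ζ hζ β p))
      (eide_bdd_mul (eide_bdd_ofReal (eide_bdd_wgt β κ θ hκ hθ)) (eide_bdd_dpsi ζ hζ β p))
  exact h

end Vale.Agent.H40.SK
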