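import Vale.Agent.H40.Res.IsingDefs

/-!
Definitions for TASK RES-EID (the weighted resolvent identity), see `IsingId.lean`.
Notation: `G = resolvent n ζ g`, `M_ab = corr (gibbs n β g) (a, b)`, `ω = wgt`, `ω' = dwgt`.
For a pair `p`:
`Ψ_p = ∑_j (G_{j,p.1} M_{p.2,j} + G_{j,p.2} M_{p.1,j})`, `Φ_p = ω Ψ_p`, and `eidDPsi`, `eidDPhi`
are their derivatives in the coupling `g p` (for `p.1 < p.2`).
-/

namespace Vale.Agent.H40.SK

open MeasureTheory ProbabilityTheory Real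

/-- `Ψ_p = ∑_j (G_{j,p.1} M_{p.2,j} + G_{j,p.2} M_{p.1,j})`. -/
noncomputable def eidPsi (n : ℕ) (ζ : ℂ) (β : ℝ) (p : Fin n × Fin n)
    (g : Fin n × Fin n → ℝ) : ℂ :=
  ∑ j, (resolvent n ζ g j p.1 * (corr (gibbs n β g) (p.2, j) : ℂ)
    + resolvent n ζ g j p.2 * (corr (gibbs n β g) (p.1, j) : ℂ))

/-- The derivative of `Ψ_p` in the coupling `g p`. -/
noncomputable def eidDPsi (n : ℕ) (ζ : ℂ) (β : ℝ) (p : Fin n × Fin n)
    (g : Fin n × Fin n → ℝ) : ℂ :=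
  ∑ j, ((((√(n : ℝ))⁻¹ : ℝ) : ℂ)
        * (resolvent n ζ g j p.1 * resolvent n ζ g p.2 p.1
          + resolvent n ζ g j p.2 * resolvent n ζ g p.1 p.1)
        * (corr (gibbs n β g) (p.2, j) : ℂ)
      + resolvent n ζ g j p.1
        * ((β * (√(n : ℝ))⁻¹ * (corr4 n β p (p.2, j) g
            - corr (gibbs n β g) p * corr (gibbs n β g) (p.2, j)) : ℝ) : ℂ)
      + (((√(n : ℝ))⁻¹ : ℝ) : ℂ)
        * (resolvent n ζ g j p.1 * resolvent n ζ g p.2 p.2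
          + resolvent n ζ g j p.2 * resolvent n ζ g p.1 p.2)
        * (corr (gibbs n β g) (p.1, j) : ℂ)
      + resolvent n ζ g j p.2
        * ((β * (√(n : ℝ))⁻¹ * (corr4 n β p (p.1, j) g
            - corr (gibbs n β g) p * corr (gibbs n β g) (p.1, j)) : ℝ) : ℂ))

/-- `Φ_p = ω Ψ_p`. -/
noncomputable def eidPhi (n : ℕ) (ζ : ℂ) (β κ θ : ℝ) (p : Fin n × Fin n)
    (g : Fin n × Fin n → ℝ) : ℂ :=
  (wgt n β κ θ g : ℂ) * eidPsi n ζ β p g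

/-- The derivative of `Φ_p` in the coupling `g p`. -/
noncomputable def eidDPhi (n : ℕ) (ζ : ℂ) (β κ θ : ℝ) (p : Fin n × Fin n)
    (g : Fin n × Fin n → ℝ) : ℂ :=
  ((dwgt n β κ θ g * dW n β p g : ℝ) : ℂ) * eidPsi n ζ β p g
    + (wgt n β κ θ g : ℂ) * eidDPsi n ζ β p g

end Vale.Agent.H40.SK
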