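import Vale.Agent.H40.Res.Eid.Defs

/-!
TASK EID-D (sub-row of RES-EID).  Derivatives in one coupling `g p`, `p.1 < p.2`.

* `eid_wgt_hasDerivAt`: `wgt = (W/n² + κ)^(-θ)` with `W = corrSq (gibbs n β g) ≥ 0`
  (a sum of squares), so the base is `≥ κ > 0`; use `corrSq_hasDerivAt` (SKWhp.lean), divide by
  the constant `n²`, add `κ`, then `HasDerivAt.rpow_const` (base `≠ 0`); the derivative is
  `dW/n² * (-θ) * base^(-θ-1) = dwgt * dW`.
* `eid_psi_hasDerivAt`: term by term (`HasDerivAt.fun_sum`), product rule with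
  `resolvent_hasDerivAt` (complex valued, `a = j`, `b = p.1` resp. `p.2`) and
  ` (corr_hasDerivAt_gen β p hp q g u).ofReal_comp` for `q = (p.2, j)`, ` (p.1, j)`; finish with
  `HasDerivAt.congr_deriv` and `push_cast; ring`.
* `eid_phi_hasDerivAt`: product rule, ` (eid_wgt_hasDerivAt ..).ofReal_comp.mul
  (eid_psi_hasDerivAt ..)`.
-/

namespace Vale.Agent.H40.SK

open MeasureTheory ProbabilityTheory Real

variable {n : ℕ}

lemma eid_wgt_hasDerivAt (hn : 1 ≤ n) (β κ θ : ℝ) (hκ : 0 < κ) (p : Fin n × Fin n)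
    (hp : p.1 < p.2) (g : Fin n × Fin n → ℝ) (u : ℝ) :
    HasDerivAt (fun t : ℝ => wgt n β κ θ (Function.update g p t))
      (dwgt n β κ θ (Function.update g p u) * dW n β p (Function.update g p u)) u := by
  have eidd_base : 0 < corrSq (gibbs n β (Function.update g p u)) / (n : ℝ) ^ 2 + κ := by
    have h0 : 0 ≤ corrSq (gibbs n β (Function.update g p u)) := by
      unfold corrSq
      exact Finset.sum_nonneg fun q _ => sq_nonneg _
    have h3 : 0 ≤ corrSq (gibbs n β (Function.update g p u)) / (n : ℝ) ^ 2 :=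
      div_nonneg h0 (sq_nonneg _)
    linarith
  have h4 := ((corrSq_hasDerivAt β p hp g u).div_const ((n : ℝ) ^ 2)).add_const κ
  have h5 := h4.rpow_const (p := -θ) (Or.inl eidd_base.ne')
  unfold wgt dwgt
  refine h5.congr_deriv ?_
  ring

lemma eid_psi_hasDerivAt (ζ : ℂ) (hζ : ζ.im ≠ 0) (β : ℝ) (p : Fin n × Fin n) (hp : p.1 < p.2)
    (g : Fin n × Fin n → ℝ) (u : ℝ) :
    HasDerivAt (fun t : ℝ => eidPsi n ζ β p (Function.update g p t))
      (eidDPsi n ζ β p (Function.update g p u)) u := by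
  unfold eidPsi eidDPsi
  refine HasDerivAt.fun_sum (fun j _ => ?_)
  have hG1 := resolvent_hasDerivAt ζ hζ p hp g u j p.1
  have hG2 := resolvent_hasDerivAt ζ hζ p hp g u j p.2
  have hM1 := (corr_hasDerivAt_gen β p hp (p.2, j) g u).ofReal_comp
  have hM2 := (corr_hasDerivAt_gen β p hp (p.1, j) g u).ofReal_comp
  exact ((hG1.mul hM1).add (hG2.mul hM2)).congr_deriv (by ring)

lemma eid_phi_hasDerivAt (hn : 1 ≤ n) (ζ : ℂ) (hζ : ζ.im ≠ 0) (β κ θ : ℝ) (hκ : 0 < κ)
    (p : Fin n × Fin n) (hp : p.1 < p.2) (g : Fin n × Fin n → ℝ) (u : ℝ) :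
    HasDerivAt (fun t : ℝ => eidPhi n ζ β κ θ p (Function.update g p t))
      (eidDPhi n ζ β κ θ p (Function.update g p u)) u := by
  have hw := (eid_wgt_hasDerivAt hn β κ θ hκ p hp g u).ofReal_comp
  have hpsi := eid_psi_hasDerivAt ζ hζ β p hp g u
  unfold eidPhi eidDPhi
  exact hw.mul hpsi

end Vale.Agent.H40.SK
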