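import Vale.Agent.H40.Res.Eid.Defs

/-!
TASK EID-L (sub-row of RES-EID).  Step 1 of the derivation in `IsingId.lean` (pointwise algebra).
With `G = resolvent n ζ g`, `M_ab = corr (gibbs n β g) (a,b)`, `J = Jmat n g`:
`∑_{i,k} J_ik (∑_j G_ji M_kj) = ∑_{j,k} (∑_i G_ji J_ik) M_kj = ∑_{j,k} (ζ G_jk - δ_jk) M_kj
   = ζ tGM - n`   (`resolvent_mul_right`, `corr_diag` with `gibbs_sum`), and by `sum_Jmat_mul`
with `F i k = ∑_j G_ji M_kj` the left side is
`∑_p if p.1 < p.2 then (g p * (√n)⁻¹) * (F p.1 p.2 + F p.2 p.1) else 0`, where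
`F p.1 p.2 + F p.2 p.1 = eidPsi n ζ β p g`; the sum over `upper n` is `Finset.sum_filter`.
Multiply by the weight.
-/

namespace Vale.Agent.H40.SK

open MeasureTheory ProbabilityTheory Real

variable {n : ℕ}

lemma eidl_sum (ζ : ℂ) (hζ : ζ.im ≠ 0) (β κ θ : ℝ) (g : Fin n × Fin n → ℝ) :
    ∑ p : Fin n × Fin n, (if p.1 < p.2 then
        ((g p : ℂ) * ((√(n : ℝ))⁻¹ : ℝ)) * eidPhi n ζ β κ θ p g else 0)
      = (wgt n β κ θ g : ℂ) * (ζ * tGM n ζ β g - (n : ℂ)) := by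
  classical
  have hJ := sum_Jmat_mul g
    (fun i k => ∑ j, resolvent n ζ g j i * (corr (gibbs n β g) (k, j) : ℂ))
  have h1 : ∑ p : Fin n × Fin n, (if p.1 < p.2 then
        ((g p : ℂ) * ((√(n : ℝ))⁻¹ : ℝ)) * eidPhi n ζ β κ θ p g else 0)
      = (wgt n β κ θ g : ℂ) * ∑ i, ∑ k, (Jmat n g i k : ℂ) *
          ∑ j, resolvent n ζ g j i * (corr (gibbs n β g) (k, j) : ℂ) := by
    rw [hJ, Finset.mul_sum]
    refine Finset.sum_congr rfl (fun p _ => ?_)
    split_ifs with h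
    · unfold eidPhi eidPsi
      rw [Finset.sum_add_distrib]
      ring
    · simp
  rw [h1]
  congr 1
  have h2 : ∀ j k : Fin n, ∑ i, resolvent n ζ g j i * (Jmat n g i k : ℂ)
      = ζ * resolvent n ζ g j k - (if j = k then 1 else 0) := by
    intro j k
    have h := resolvent_mul_right ζ hζ g j k
    rw [← h]
    ring
  have h3 : ∑ i, ∑ k, (Jmat n g i k : ℂ) *
        ∑ j, resolvent n ζ g j i * (corr (gibbs n β g) (k, j) : ℂ)
      = ∑ j, ∑ k, (∑ i, resolvent n ζ g j i * (Jmat n g i k : ℂ)) *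
          (corr (gibbs n β g) (k, j) : ℂ) := by
    simp only [Finset.mul_sum, Finset.sum_mul]
    calc ∑ i, ∑ k, ∑ j, (Jmat n g i k : ℂ) *
            (resolvent n ζ g j i * (corr (gibbs n β g) (k, j) : ℂ))
        = ∑ k, ∑ i, ∑ j, (Jmat n g i k : ℂ) *
            (resolvent n ζ g j i * (corr (gibbs n β g) (k, j) : ℂ)) := Finset.sum_comm
      _ = ∑ k, ∑ j, ∑ i, (Jmat n g i k : ℂ) *
            (resolvent n ζ g j i * (corr (gibbs n β g) (k, j) : ℂ)) :=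
          Finset.sum_congr rfl (fun k _ => Finset.sum_comm)
      _ = ∑ j, ∑ k, ∑ i, (Jmat n g i k : ℂ) *
            (resolvent n ζ g j i * (corr (gibbs n β g) (k, j) : ℂ)) := Finset.sum_comm
      _ = ∑ j, ∑ k, ∑ i, resolvent n ζ g j i * (Jmat n g i k : ℂ) *
            (corr (gibbs n β g) (k, j) : ℂ) :=
          Finset.sum_congr rfl (fun j _ => Finset.sum_congr rfl (fun k _ =>
            Finset.sum_congr rfl (fun i _ => by ring)))
  rw [h3]
  simp only [h2, sub_mul, Finset.sum_sub_distrib, ite_mul, one_mul, zero_mul,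
    Finset.sum_ite_eq, Finset.mem_univ, if_true]
  have h4 : ∑ j : Fin n, (corr (gibbs n β g) (j, j) : ℂ) = (n : ℂ) := by
    simp [corr_diag (gibbs n β g) (gibbs_sum n β g)]
  rw [h4]
  congr 1
  unfold tGM
  rw [Finset.mul_sum]
  refine Finset.sum_congr rfl (fun a _ => ?_)
  rw [Finset.mul_sum]
  refine Finset.sum_congr rfl (fun b _ => ?_)
  ring

lemma eid_left (ζ : ℂ) (hζ : ζ.im ≠ 0) (β κ θ : ℝ) (g : Fin n × Fin n → ℝ) :
    (wgt n β κ θ g : ℂ) * (ζ * tGM n ζ β g - (n : ℂ))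
      = ∑ p ∈ upper n, (((√(n : ℝ))⁻¹ : ℝ) : ℂ) * ((g p : ℂ) * eidPhi n ζ β κ θ p g) := by
  classical
  rw [← eidl_sum ζ hζ β κ θ g]
  unfold upper
  rw [Finset.sum_filter]
  refine Finset.sum_congr rfl (fun p _ => ?_)
  split_ifs with h
  · ring
  · rfl

end Vale.Agent.H40.SK
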