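import Vale.Agent.H40.Res.Eid.Defs
import Vale.Agent.H40.Res.Eid.AlgA
import Vale.Agent.H40.Res.Eid.AlgB
import Vale.Agent.H40.Res.Eid.AlgC

/-!
TASK EID-R (sub-row of RES-EID).  Steps 3 and 4 of the derivation in `IsingId.lean` (pointwise
algebra): the sum over the pairs `i < k` of the derivatives `eidDPhi`, divided by `√n`, equals the
residual plus the left side of Step 1.

Route.  Put `G a b = resolvent n ζ g a b` (symmetric: `resolvent_symm`),
`M a b = (corr (gibbs n β g) (a, b) : ℂ)`, `μ x = (gibbs n β g x : ℂ)`,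
`s x i = (spin (x i) : ℂ)`, `c4 p q = (corr4 n β p q g : ℂ)`.  Then
`M a b = ∑_x μ_x (s_a s_b)` (unfold `corr`, `push_cast`),
`c4 p q = ∑_x μ_x ((s_{p.1} s_{p.2}) (s_{q.1} s_{q.2}))` (unfold `corr4`, `corrNum4`, `gibbs_eq`,
`Finset.sum_div`), `s x i * s x i = 1` (`spin_mul_self`), `∑ μ = 1` (`gibbs_sum`).
Unfold `eidDPhi`, `eidDPsi`, `eidPsi`, `dW` and split the sum into three parts:
 (a) `ω (√n)⁻¹ (√n)⁻¹ * [left side of eid_alg_A]`,
 (b) `ω β (√n)⁻¹ (√n)⁻¹ * [left side of eid_alg_B]`,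
 (c) `ω' β (√n)⁻¹ (√n)⁻¹ * [left side of eid_alg_C]`,
with ` (√n)⁻¹ (√n)⁻¹ = 1/n`.  Then `eid_alg_A/B/C` give
 ` (1/n) (ω (tG2M + (∑_a G_aa) tGM - 2 dGM) + β ω (n tGM - tGM2) + 2 β ω' (four - W tGM2))`,
where `∑_a G_aa = n * stieltjes` (`n ≠ 0`), `W = corrSq = ∑_q M_q²`, and `four`, `tGM`, `tGM2`,
`tG2M`, `dGM` are those of `IsingDefs.lean`; compare with `resid` (`field_simp`/`ring`).
-/

namespace Vale.Agent.H40.SK

open MeasureTheory ProbabilityTheory Real

variable {n : ℕ}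

/-- The four-spin correlation as a Gibbs average. -/
lemma eidr_corr4_eq (β : ℝ) (p q : Fin n × Fin n) (g : Fin n × Fin n → ℝ) :
    corr4 n β p q g = ∑ x, gibbs n β g x
      * ((spin (x p.1) * spin (x p.2)) * (spin (x q.1) * spin (x q.2))) := by
  unfold corr4 corrNum4
  simp_rw [gibbs_eq]
  rw [Finset.sum_div]
  refine Finset.sum_congr rfl fun x _ => ?_
  ring

/-- The derivative of `corrSq`, cast to `ℂ`, with the scalar factors pulled out. -/
lemma eidr_dW_cast (β : ℝ) (p : Fin n × Fin n) (g : Fin n × Fin n → ℝ) :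
    ((dW n β p g : ℝ) : ℂ) = (β : ℂ) * (((√(n : ℝ))⁻¹ : ℝ) : ℂ)
      * ∑ q : Fin n × Fin n, 2 * (corr (gibbs n β g) (q.1, q.2) : ℂ)
        * ((corr4 n β p q g : ℂ)
          - (corr (gibbs n β g) p : ℂ) * (corr (gibbs n β g) (q.1, q.2) : ℂ)) := by
  unfold dW
  rw [Complex.ofReal_sum, Finset.mul_sum]
  refine Finset.sum_congr rfl fun q _ => ?_
  push_cast
  ring

lemma eid_right (hn : 1 ≤ n) (ζ : ℂ) (hζ : ζ.im ≠ 0) (β κ θ : ℝ) (g : Fin n × Fin n → ℝ) :
    ∑ p ∈ upper n, (((√(n : ℝ))⁻¹ : ℝ) : ℂ) * eidDPhi n ζ β κ θ p g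
      = resid n ζ β κ θ g + (wgt n β κ θ g : ℂ) * (ζ * tGM n ζ β g - (n : ℂ)) := by
  -- abbreviations
  set r : ℂ := (((√(n : ℝ))⁻¹ : ℝ) : ℂ) with hr
  have hn0 : (n : ℂ) ≠ 0 := by
    have : (n : ℕ) ≠ 0 := by omega
    exact_mod_cast this
  have hrr : r * r = (n : ℂ)⁻¹ := by
    rw [hr, ← Complex.ofReal_mul, ← mul_inv, Real.mul_self_sqrt (Nat.cast_nonneg n)]
    push_cast
    rfl
  -- the model instantiates the abstract data
  have hG : ∀ a b : Fin n, resolvent n ζ g a b = resolvent n ζ g b a :=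
    fun a b => resolvent_symm ζ hζ g a b
  have hMs : ∀ a b : Fin n, (corr (gibbs n β g) (a, b) : ℂ) = (corr (gibbs n β g) (b, a) : ℂ) := by
    intro a b
    have := corr_swap (gibbs n β g) (a, b)
    simp only [Prod.swap_prod_mk] at this
    rw [this]
  have hM : ∀ a b : Fin n, (corr (gibbs n β g) (a, b) : ℂ)
      = ∑ x : Fin n → Bool, (gibbs n β g x : ℂ) * ((spin (x a) : ℂ) * (spin (x b) : ℂ)) := by
    intro a b
    unfold corr
    push_cast
    rfl
  have h4 : ∀ p q : Fin n × Fin n, (corr4 n β p q g : ℂ)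
      = ∑ x : Fin n → Bool, (gibbs n β g x : ℂ)
        * (((spin (x p.1) : ℂ) * (spin (x p.2) : ℂ)) * ((spin (x q.1) : ℂ) * (spin (x q.2) : ℂ))) := by
    intro p q
    rw [eidr_corr4_eq]
    push_cast
    rfl
  have hs : ∀ (x : Fin n → Bool) (i : Fin n), (spin (x i) : ℂ) * (spin (x i) : ℂ) = 1 := by
    intro x i
    rw [← Complex.ofReal_mul, spin_mul_self]
    simp
  have hμ : ∑ x : Fin n → Bool, (gibbs n β g x : ℂ) = 1 := by
    rw [← Complex.ofReal_sum, gibbs_sum]
    simp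
  have hW : ∑ q : Fin n × Fin n, (corr (gibbs n β g) (q.1, q.2) : ℂ) ^ 2
      = (corrSq (gibbs n β g) : ℂ) := by
    unfold corrSq
    push_cast
    rfl
  -- the three algebraic identities
  have hA : ∑ p ∈ upper n, ∑ j,
        ((resolvent n ζ g j p.1 * resolvent n ζ g p.2 p.1
            + resolvent n ζ g j p.2 * resolvent n ζ g p.1 p.1)
          * (corr (gibbs n β g) (p.2, j) : ℂ)
        + (resolvent n ζ g j p.1 * resolvent n ζ g p.2 p.2
            + resolvent n ζ g j p.2 * resolvent n ζ g p.1 p.2)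
          * (corr (gibbs n β g) (p.1, j) : ℂ))
      = tG2M n ζ β g + (∑ a, resolvent n ζ g a a) * tGM n ζ β g - 2 * dGM n ζ β g :=
    eid_alg_A (fun a b => resolvent n ζ g a b) (fun a b => (corr (gibbs n β g) (a, b) : ℂ))
      hG hMs
  have hB : ∑ p ∈ upper n, ∑ j,
        (resolvent n ζ g j p.1 * ((corr4 n β p (p.2, j) g : ℂ)
            - (corr (gibbs n β g) p : ℂ) * (corr (gibbs n β g) (p.2, j) : ℂ))
        + resolvent n ζ g j p.2 * ((corr4 n β p (p.1, j) g : ℂ)
            - (corr (gibbs n β g) p : ℂ) * (corr (gibbs n β g) (p.1, j) : ℂ)))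
      = (n : ℂ) * tGM n ζ β g - tGM2 n ζ β g :=
    eid_alg_B (fun x : Fin n → Bool => (gibbs n β g x : ℂ))
      (fun (x : Fin n → Bool) (i : Fin n) => (spin (x i) : ℂ)) hs hμ
      (fun a b => resolvent n ζ g a b) (fun a b => (corr (gibbs n β g) (a, b) : ℂ))
      (fun p q => (corr4 n β p q g : ℂ)) hM h4
  have hC : ∑ p ∈ upper n,
        (∑ q : Fin n × Fin n, 2 * (corr (gibbs n β g) (q.1, q.2) : ℂ)
          * ((corr4 n β p q g : ℂ)
            - (corr (gibbs n β g) p : ℂ) * (corr (gibbs n β g) (q.1, q.2) : ℂ)))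
        * (∑ j, (resolvent n ζ g j p.1 * (corr (gibbs n β g) (p.2, j) : ℂ)
            + resolvent n ζ g j p.2 * (corr (gibbs n β g) (p.1, j) : ℂ)))
      = 2 * (four n ζ β g - (corrSq (gibbs n β g) : ℂ) * tGM2 n ζ β g) := by
    rw [← hW]
    exact eid_alg_C (fun x : Fin n → Bool => (gibbs n β g x : ℂ))
      (fun (x : Fin n → Bool) (i : Fin n) => (spin (x i) : ℂ)) hs hμ
      (fun a b => resolvent n ζ g a b) (fun a b => (corr (gibbs n β g) (a, b) : ℂ))
      (fun p q => (corr4 n β p q g : ℂ)) hM h4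
  -- the summand, split into the three parts
  have hp : ∀ p : Fin n × Fin n, r * eidDPhi n ζ β κ θ p g
      = (r * r) * (wgt n β κ θ g : ℂ) * (∑ j,
          ((resolvent n ζ g j p.1 * resolvent n ζ g p.2 p.1
              + resolvent n ζ g j p.2 * resolvent n ζ g p.1 p.1)
            * (corr (gibbs n β g) (p.2, j) : ℂ)
          + (resolvent n ζ g j p.1 * resolvent n ζ g p.2 p.2
              + resolvent n ζ g j p.2 * resolvent n ζ g p.1 p.2)
            * (corr (gibbs n β g) (p.1, j) : ℂ)))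
        + (r * r) * ((β : ℂ) * (wgt n β κ θ g : ℂ)) * (∑ j,
          (resolvent n ζ g j p.1 * ((corr4 n β p (p.2, j) g : ℂ)
              - (corr (gibbs n β g) p : ℂ) * (corr (gibbs n β g) (p.2, j) : ℂ))
          + resolvent n ζ g j p.2 * ((corr4 n β p (p.1, j) g : ℂ)
              - (corr (gibbs n β g) p : ℂ) * (corr (gibbs n β g) (p.1, j) : ℂ))))
        + (r * r) * ((β : ℂ) * (dwgt n β κ θ g : ℂ)) *
          ((∑ q : Fin n × Fin n, 2 * (corr (gibbs n β g) (q.1, q.2) : ℂ)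
            * ((corr4 n β p q g : ℂ)
              - (corr (gibbs n β g) p : ℂ) * (corr (gibbs n β g) (q.1, q.2) : ℂ)))
          * (∑ j, (resolvent n ζ g j p.1 * (corr (gibbs n β g) (p.2, j) : ℂ)
              + resolvent n ζ g j p.2 * (corr (gibbs n β g) (p.1, j) : ℂ)))) := by
    intro p
    have hd : eidDPsi n ζ β p g
        = r * (∑ j,
          ((resolvent n ζ g j p.1 * resolvent n ζ g p.2 p.1
              + resolvent n ζ g j p.2 * resolvent n ζ g p.1 p.1)
            * (corr (gibbs n β g) (p.2, j) : ℂ)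
          + (resolvent n ζ g j p.1 * resolvent n ζ g p.2 p.2
              + resolvent n ζ g j p.2 * resolvent n ζ g p.1 p.2)
            * (corr (gibbs n β g) (p.1, j) : ℂ)))
        + ((β : ℂ) * r) * (∑ j,
          (resolvent n ζ g j p.1 * ((corr4 n β p (p.2, j) g : ℂ)
              - (corr (gibbs n β g) p : ℂ) * (corr (gibbs n β g) (p.2, j) : ℂ))
          + resolvent n ζ g j p.2 * ((corr4 n β p (p.1, j) g : ℂ)
              - (corr (gibbs n β g) p : ℂ) * (corr (gibbs n β g) (p.1, j) : ℂ)))) := by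
      unfold eidDPsi
      rw [Finset.mul_sum, Finset.mul_sum, ← Finset.sum_add_distrib]
      refine Finset.sum_congr rfl fun j _ => ?_
      simp only [Complex.ofReal_mul, Complex.ofReal_sub]
      ring
    unfold eidDPhi
    rw [hd, Complex.ofReal_mul, eidr_dW_cast]
    unfold eidPsi
    ring
  rw [Finset.sum_congr rfl fun p _ => hp p, Finset.sum_add_distrib, Finset.sum_add_distrib,
    ← Finset.mul_sum, ← Finset.mul_sum, ← Finset.mul_sum, hA, hB, hC, hrr]
  have htr : ∑ a, resolvent n ζ g a a = (n : ℂ) * stieltjes n ζ g := by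
    unfold stieltjes
    field_simp
  rw [htr]
  unfold resid
  field_simp
  ring

end Vale.Agent.H40.SK
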