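import Vale.Agent.H40.SKWhp

/-!
TASK RES-EID, finite-sum bookkeeping: a sum over the pairs `i < k` of a symmetrised term is the
sum over all ordered pairs minus the diagonal.
-/

namespace Vale.Agent.H40.SK

variable {n : ℕ}

/-- `∑_{i<k} (T i k + T k i) = ∑_{i,k} T i k - ∑_i T i i`. -/
lemma eid_sum_upper_sym (T : Fin n → Fin n → ℂ) :
    ∑ p ∈ upper n, (T p.1 p.2 + T p.2 p.1) = ∑ i, ∑ k, T i k - ∑ i, T i i := by
  have h1 : ∀ p : Fin n × Fin n, T p.1 p.2 = (if p.1 < p.2 then T p.1 p.2 else 0)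
      + (if p.1 = p.2 then T p.1 p.2 else 0) + (if p.2 < p.1 then T p.1 p.2 else 0) := by
    intro p
    rcases lt_trichotomy p.1 p.2 with h | h | h
    · simp [h, h.ne, h.not_gt]
    · simp [h]
    · simp [h, h.ne', h.not_gt]
  have h2 : ∑ p : Fin n × Fin n, (if p.2 < p.1 then T p.1 p.2 else 0)
      = ∑ p : Fin n × Fin n, (if p.1 < p.2 then T p.2 p.1 else 0) := by
    rw [← Equiv.sum_comp (Equiv.prodComm (Fin n) (Fin n))]
    rfl
  have h3 : ∑ p : Fin n × Fin n, (if p.1 = p.2 then T p.1 p.2 else 0) = ∑ i, T i i := by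
    rw [Fintype.sum_prod_type]
    refine Finset.sum_congr rfl fun i _ => ?_
    simp
  have h4 : ∑ i, ∑ k, T i k = ∑ p : Fin n × Fin n, T p.1 p.2 := by
    rw [Fintype.sum_prod_type]
  have h5 : ∑ p ∈ upper n, (T p.1 p.2 + T p.2 p.1)
      = ∑ p : Fin n × Fin n, (if p.1 < p.2 then T p.1 p.2 else 0)
        + ∑ p : Fin n × Fin n, (if p.1 < p.2 then T p.2 p.1 else 0) := by
    unfold upper
    rw [Finset.sum_filter, ← Finset.sum_add_distrib]
    refine Finset.sum_congr rfl fun p _ => ?_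
    split_ifs <;> simp
  have h6 : ∑ p : Fin n × Fin n, T p.1 p.2
      = ∑ p : Fin n × Fin n, (if p.1 < p.2 then T p.1 p.2 else 0)
        + ∑ p : Fin n × Fin n, (if p.1 = p.2 then T p.1 p.2 else 0)
        + ∑ p : Fin n × Fin n, (if p.2 < p.1 then T p.1 p.2 else 0) := by
    rw [← Finset.sum_add_distrib, ← Finset.sum_add_distrib]
    exact Finset.sum_congr rfl fun p _ => h1 p
  rw [h5, h4, h6, h2, h3]
  ring

end Vale.Agent.H40.SK
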